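import Vale.Agent.P192.Main

open P192

universe u v

theorem Vale.Agent.Results.P192.ThinActions.result (G : Type u) [Group G]
    [Group.IsFinitelyPresented G] (hper : ∀ g : G, IsOfFinOrder g) (s : Finset G)
    (hs : Subgroup.closure (s : Set G) = ⊤) :
    (∀ K : ℕ, ∃ (N : ℕ) (F : Finset G), ∀ (X : Type v) [MulAction G X] (A : ℕ → Set X),
      (∀ i ≤ N, {x ∈ A i | ∃ y ∉ A i, (schreier (s : Set G) X).Adj x y}.encard ≤ K) →
      (∀ i ≤ N, ∀ g ∈ F, ∀ x ∈ A i, g • x ∈ A (i + 1)) →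
      ∀ g : G, ∀ x ∈ A 0, g • x ∈ A (N + 1)) ∧
    (∀ (X : Type v) [MulAction G X] [MulAction.IsPretransitive G X] (A : ℕ → Finset X) (K : ℕ),
      (∀ x, ∀ᶠ n in Filter.atTop, x ∈ A n) →
      (∀ n, {x ∈ (A n : Set X) | ∃ y ∉ (A n : Set X),
        (schreier (s : Set G) X).Adj x y}.encard ≤ K) →
      Finite X ∧ (FaithfulSMul G X → Finite G)) ∧
    (∀ k : ℕ, ∃ M : ℕ, ∀ (X : Type v) [MulAction G X],
      TreewidthLE (schreier (s : Set G) X) k →
      (∀ x : X, (MulAction.orbit G x).encard ≤ M) ∧ Finite (MulAction.toPermHom G X).range ∧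
        (FaithfulSMul G X → Finite G)) ∧
    (∀ ρ : G →* Equiv.Perm ℤ, (∀ g, ∃ C : ℤ, ∀ x, |ρ g x - x| ≤ C) → Finite ρ.range) := by
  refine ⟨pump hper s hs, fun X _ _ A K h1 h2 => ?_, fun k => ?_, wobbling hper s hs⟩
  · have := exhaust hper s hs X A K h1 h2
    exact ⟨this, fun _ => finite_of_faithful X inferInstance⟩
  · obtain ⟨M, h⟩ := treewidth.{v} hper s hs k
    exact ⟨M, fun X _ hX => ⟨(h X hX).1, (h X hX).2, fun _ => finite_of_faithful X (h X hX).2⟩⟩
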